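import Vale.Agent.P356.Defs

namespace Vale.Agent.P356

lemma exists_step {L : ℕ} (x y : Site L) (hxy : x ≠ y) :
    ∃ z : Site L, dist1 x z = 1 ∧ dist1 z y + 1 = dist1 x y := by
  obtain ⟨⟨a, ha⟩, ⟨b, hb⟩⟩ := x
  obtain ⟨⟨c, hc⟩, ⟨d, hd⟩⟩ := y
  have hne : a ≠ c ∨ b ≠ d := by
    by_contra h
    push Not at h
    exact hxy (by obtain ⟨rfl, rfl⟩ := h; rfl)
  rcases lt_trichotomy a c with h | h | h
  · exact ⟨(⟨a + 1, by omega⟩, ⟨b, hb⟩), by simp [dist1, Nat.dist], by
      simp [dist1, Nat.dist]; omega⟩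
  · rcases lt_trichotomy b d with h' | h' | h'
    · exact ⟨(⟨a, ha⟩, ⟨b + 1, by omega⟩), by simp [dist1, Nat.dist], by
        simp [dist1, Nat.dist]; omega⟩
    · omega
    · exact ⟨(⟨a, ha⟩, ⟨b - 1, by omega⟩), by simp [dist1, Nat.dist]; omega, by
        simp [dist1, Nat.dist]; omega⟩
  · exact ⟨(⟨a - 1, by omega⟩, ⟨b, hb⟩), by simp [dist1, Nat.dist]; omega, by
      simp [dist1, Nat.dist]; omega⟩

lemma dist1_tri {L : ℕ} (x y z : Site L) : dist1 x z ≤ dist1 x y + dist1 y z := by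
  simp only [dist1, Nat.dist]; omega

lemma dist1_comm {L : ℕ} (x y : Site L) : dist1 x y = dist1 y x := by
  simp only [dist1, Nat.dist]; omega

lemma near_edge {L : ℕ} (A : Finset (Site L)) (n : ℕ) : ∀ x y : Site L, x ∈ A → y ∉ A →
    dist1 x y ≤ n → ∃ u v : Site L, u ∈ A ∧ v ∉ A ∧ dist1 u v = 1 ∧ dist1 u x ≤ n := by
  induction n with
  | zero =>
    intro x y hx hy h
    obtain ⟨z, _, h2⟩ := exists_step x y (fun e => hy (e ▸ hx))
    omega
  | succ n ih =>
    intro x y hx hy h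
    obtain ⟨z, h1, h2⟩ := exists_step x y (fun e => hy (e ▸ hx))
    by_cases hz : z ∈ A
    · obtain ⟨u, v, hu, hv, huv, hd⟩ := ih z y hz hy (by omega)
      refine ⟨u, v, hu, hv, huv, ?_⟩
      have := dist1_tri u z x
      rw [dist1_comm z x] at this
      omega
    · exact ⟨x, z, hx, hz, h1, by simp [dist1, Nat.dist]⟩

def ball {L : ℕ} (u : Site L) (r : ℕ) : Finset (Site L) :=
  Finset.univ.filter fun x => dist1 u x ≤ r

lemma card_ball {L : ℕ} (u : Site L) (r : ℕ) : (ball u r).card ≤ (2 * r + 1) ^ 2 := by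
  have : (ball u r).card ≤ (Finset.range (2 * r + 1) ×ˢ Finset.range (2 * r + 1)).card := by
    apply Finset.card_le_card_of_injOn (fun x => (x.1.1 + r - u.1.1, x.2.1 + r - u.2.1))
    · intro x hx
      have hx' : dist1 u x ≤ r := by simpa [ball] using hx
      simp only [dist1, Nat.dist] at hx'
      simp only [Finset.coe_product, Finset.coe_range, Set.mem_prod, Set.mem_Iio]
      constructor <;> omega
    · intro x hx y hy hxy
      have hx' : dist1 u x ≤ r := by simpa [ball] using hx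
      have hy' : dist1 u y ≤ r := by simpa [ball] using hy
      simp only [dist1, Nat.dist] at hx' hy'
      have h1 : x.1.1 + r - u.1.1 = y.1.1 + r - u.1.1 := congrArg Prod.fst hxy
      have h2 : x.2.1 + r - u.2.1 = y.2.1 + r - u.2.1 := congrArg Prod.snd hxy
      ext <;> omega
  simpa [sq] using this

/-- supports meeting both A and its complement -/
def cross {L : ℕ} (R : ℕ) (A : Finset (Site L)) : Finset (Finset (Site L)) :=
  (supports L R).filter fun X => (∃ x ∈ X, x ∈ A) ∧ ∃ y ∈ X, y ∉ A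

lemma card_supp {L R : ℕ} {X : Finset (Site L)} (hX : X ∈ supports L R) :
    X.card ≤ (2 * R + 1) ^ 2 := by
  simp only [supports, Finset.mem_filter, Finset.mem_univ, true_and] at hX
  obtain ⟨⟨x, hx⟩, h⟩ := hX
  refine le_trans (Finset.card_le_card fun y hy => ?_) (card_ball x R)
  simp [ball, h x hx y hy]

lemma card_cross {L : ℕ} (R : ℕ) (A : Finset (Site L)) :
    (cross R A).card ≤ bdry A * 2 ^ (2 * (2 * R) + 1) ^ 2 := by
  set E := Finset.univ.filter fun p : Site L × Site L => p.1 ∈ A ∧ p.2 ∉ A ∧ dist1 p.1 p.2 = 1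
  have hsub : cross R A ⊆ E.biUnion fun p => (ball p.1 (2 * R)).powerset := by
    intro X hX
    simp only [cross, supports, Finset.mem_filter, Finset.mem_univ, true_and] at hX
    obtain ⟨⟨_, h⟩, ⟨x, hx, hxA⟩, y, hy, hyA⟩ := hX
    obtain ⟨u, v, hu, hv, huv, hd⟩ := near_edge A R x y hxA hyA (h x hx y hy)
    simp only [Finset.mem_biUnion, Finset.mem_powerset]
    refine ⟨(u, v), by simp [E, hu, hv, huv], fun z hz => ?_⟩
    have := dist1_tri u x z
    have := h x hx z hz
    simp only [ball, Finset.mem_filter, Finset.mem_univ, true_and]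
    omega
  refine (Finset.card_le_card hsub).trans (Finset.card_biUnion_le_card_mul _ _ _ fun p _ => ?_)
  rw [Finset.card_powerset]
  exact Nat.pow_le_pow_right (by norm_num) (card_ball _ _)

end Vale.Agent.P356
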