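import Mathlib

namespace Vale.Agent.P356

open Matrix
open scoped ComplexOrder

/-- sites of the L by L square -/
abbrev Site (L : ℕ) := Fin L × Fin L

/-- basis configurations; the Hilbert space is Conf L q → ℂ, the tensor product of the ℂ^q -/
abbrev Conf (L q : ℕ) := Site L → Fin q

/-- the l1 distance -/
def dist1 {L : ℕ} (x y : Site L) : ℕ := Nat.dist x.1 y.1 + Nat.dist x.2 y.2

/-- h acts on the factors in X and as the identity elsewhere -/
def ActsOn {L q : ℕ} (X : Finset (Site L)) (h : Matrix (Conf L q) (Conf L q) ℂ) : Prop :=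
  ∃ m : Matrix ({x // x ∈ X} → Fin q) ({x // x ∈ X} → Fin q) ℂ, ∀ σ τ : Conf L q,
    h σ τ = if ∀ x, x ∉ X → σ x = τ x then m (fun x => σ x.1) (fun x => τ x.1) else 0

/-- nonempty sets of l1-diameter at most R -/
def supports (L R : ℕ) : Finset (Finset (Site L)) :=
  Finset.univ.filter fun X => X.Nonempty ∧ ∀ x ∈ X, ∀ y ∈ X, dist1 x y ≤ R

/-- the terms of an admissible Hamiltonian -/
def Admissible {L q : ℕ} (R : ℕ) (J : ℝ)
    (h : Finset (Site L) → Matrix (Conf L q) (Conf L q) ℂ) : Prop :=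
  ∀ X ∈ supports L R, (h X).IsHermitian ∧ ActsOn X (h X) ∧
    ‖Matrix.toEuclideanCLM (n := Conf L q) (𝕜 := ℂ) (h X)‖ ≤ J

/-- the Hamiltonian -/
def ham {L q : ℕ} (R : ℕ) (h : Finset (Site L) → Matrix (Conf L q) (Conf L q) ℂ) :
    Matrix (Conf L q) (Conf L q) ℂ := ∑ X ∈ supports L R, h X

/-- Ω is a unit eigenvector with eigenvalue E0 and H - E0 ≥ Δ (1 - |Ω⟩⟨Ω|) -/
def Gapped {L q : ℕ} (H : Matrix (Conf L q) (Conf L q) ℂ) (Δ : ℝ) (Ω : Conf L q → ℂ) : Prop :=
  ∃ E0 : ℝ, ∑ σ, ‖Ω σ‖ ^ 2 = 1 ∧ H *ᵥ Ω = (E0 : ℂ) • Ω ∧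
    (H - (E0 : ℂ) • (1 : Matrix (Conf L q) (Conf L q) ℂ) -
      (Δ : ℂ) • (1 - vecMulVec Ω (star Ω))).PosSemidef

/-- the configuration equal to a on A and to b off A -/
def glue {L q : ℕ} (A : Finset (Site L)) (a : {x // x ∈ A} → Fin q) (b : {x // x ∉ A} → Fin q) :
    Conf L q := fun x => if hx : x ∈ A then a ⟨x, hx⟩ else b ⟨x, hx⟩

/-- the reduced density matrix on A -/
noncomputable def rho {L q : ℕ} (A : Finset (Site L)) (Ω : Conf L q → ℂ) :
    Matrix ({x // x ∈ A} → Fin q) ({x // x ∈ A} → Fin q) ℂ :=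
  fun a a' => ∑ b : {x // x ∉ A} → Fin q, Ω (glue A a b) * star (Ω (glue A a' b))

theorem rho_herm {L q : ℕ} (A : Finset (Site L)) (Ω : Conf L q → ℂ) : (rho A Ω).IsHermitian := by
  ext a a'
  simp [rho, conjTranspose_apply, mul_comm]

/-- the eigenvalues of the reduced density matrix, with multiplicity -/
noncomputable def ev {L q : ℕ} (A : Finset (Site L)) (Ω : Conf L q → ℂ) :
    ({x // x ∈ A} → Fin q) → ℝ := (rho_herm A Ω).eigenvalues

/-- the entanglement entropy -/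
noncomputable def ent {L q : ℕ} (A : Finset (Site L)) (Ω : Conf L q → ℂ) : ℝ :=
  ∑ i, -(ev A Ω i * Real.log (ev A Ω i))

/-- the number of boundary edges, each listed as (inside point, outside point) -/
def bdry {L : ℕ} (A : Finset (Site L)) : ℕ :=
  (Finset.univ.filter fun p : Site L × Site L => p.1 ∈ A ∧ p.2 ∉ A ∧ dist1 p.1 p.2 = 1).card

end Vale.Agent.P356
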