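import Mathlib

namespace Vale.Agent.P356

open Matrix
open scoped ComplexOrder

section Bi
variable {m n k : Type} [Fintype m] [Fintype n] [Fintype k] [DecidableEq m] [DecidableEq n]
  [DecidableEq k]

def Bi (M : Matrix m n ℂ) : Prop := (1 - M * Mᴴ).PosSemidef ∧ (1 - Mᴴ * M).PosSemidef

lemma psd_idem (P : Matrix m m ℂ) (h1 : Pᴴ = P) (h2 : P * P = P) : (1 - P).PosSemidef := by
  have : 1 - P = (1 - P)ᴴ * (1 - P) := by
    rw [conjTranspose_sub, conjTranspose_one, h1, Matrix.sub_mul, Matrix.mul_sub, Matrix.mul_sub,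
      h2]
    simp
  rw [this]
  exact posSemidef_conjTranspose_mul_self _

lemma bi_of (M : Matrix m n ℂ) (h : M * Mᴴ * M = M) : Bi M := by
  have h' : Mᴴ * M * Mᴴ = Mᴴ := by
    have := congrArg conjTranspose h
    simpa [Matrix.mul_assoc] using this
  constructor
  · apply psd_idem
    · simp
    · rw [← Matrix.mul_assoc, h]
  · apply psd_idem
    · simp
    · rw [← Matrix.mul_assoc, h']

lemma Bi.ct {M : Matrix m n ℂ} (h : Bi M) : Bi Mᴴ := by
  refine ⟨?_, ?_⟩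
  · simpa using h.2
  · simpa using h.1

lemma Bi.mul {M : Matrix m n ℂ} {N : Matrix n k ℂ} (hM : Bi M) (hN : Bi N) : Bi (M * N) := by
  constructor
  · have : 1 - M * N * (M * N)ᴴ = (1 - M * Mᴴ) + M * (1 - N * Nᴴ) * Mᴴ := by
      simp [Matrix.mul_sub, Matrix.sub_mul, Matrix.mul_assoc]
    rw [this]
    exact hM.1.add (hN.1.mul_mul_conjTranspose_same M)
  · have : 1 - (M * N)ᴴ * (M * N) = (1 - Nᴴ * N) + Nᴴ * (1 - Mᴴ * M) * N := by
      simp [Matrix.mul_sub, Matrix.sub_mul, Matrix.mul_assoc]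
    rw [this]
    exact hN.2.add (hM.2.conjTranspose_mul_mul_same N)

lemma Bi.row {M : Matrix m n ℂ} (h : Bi M) (i : m) : ∑ j, ‖M i j‖ ^ 2 ≤ 1 := by
  have h1 := h.1.diag_nonneg (i := i)
  have h2 : (1 - M * Mᴴ : Matrix m m ℂ) i i = ((1 - ∑ j, ‖M i j‖ ^ 2 : ℝ) : ℂ) := by
    simp [Matrix.mul_apply, Complex.mul_conj, Complex.normSq_eq_norm_sq]
  rw [h2] at h1
  have := Complex.zero_le_real.mp h1
  linarith

lemma Bi.col {M : Matrix m n ℂ} (h : Bi M) (j : n) : ∑ i, ‖M i j‖ ^ 2 ≤ 1 := by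
  simpa using h.ct.row j

open Classical in
/-- indicator matrix of a relation -/
noncomputable def ind (r : m → m → Prop) : Matrix m m ℂ := fun a b => if r a b then 1 else 0

lemma bi_ind (r : m → m → Prop) (h1 : ∀ a b b', r a b → r a b' → b = b')
    (h2 : ∀ a a' b, r a b → r a' b → a = a') : Bi (ind r) := by
  classical
  apply bi_of
  ext a b
  have e : ∀ a', (ind r * (ind r)ᴴ) a a' = if a' = a ∧ ∃ c, r a c then 1 else 0 := by
    intro a'
    simp only [Matrix.mul_apply, conjTranspose_apply, ind]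
    by_cases hc : ∃ c, r a c
    · obtain ⟨c, hc⟩ := hc
      rw [Finset.sum_eq_single c]
      · by_cases ha : a' = a
        · subst ha
          simp [hc, show ∃ c, r a' c from ⟨c, hc⟩]
        · have : ¬ r a' c := fun h => ha (h2 _ _ _ h hc)
          simp [ha, this]
      · intro b _ hb
        have : ¬ r a b := fun h => hb (h1 _ _ _ h hc)
        simp [this]
      · simp
    · have : ∀ c, ¬ r a c := fun c h => hc ⟨c, h⟩
      simp [this]
  rw [Matrix.mul_apply, Finset.sum_eq_single a]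
  · rw [e]
    by_cases hab : r a b
    · simp [ind, hab, show ∃ c, r a c from ⟨b, hab⟩]
    · simp [ind, hab]
  · intro a' _ ha
    rw [e]
    simp [ha]
  · simp

end Bi

section Core
variable {α β : Type} [Fintype α] [Fintype β] [DecidableEq α] [DecidableEq β]

/-- the vector (as a matrix) with Schmidt coefficients g -/
noncomputable def psi (U : Matrix α α ℂ) (N : Matrix α β ℂ) (g : α → ℝ) : Matrix α β ℂ :=
  U * diagonal (fun i => (g i : ℂ)) * N

noncomputable def tf (P : Matrix α α ℂ) (Q : Matrix β β ℂ) (V W : Matrix α β ℂ) : ℂ :=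
  trace (Vᴴ * P * W * Q)

lemma tf_psi (U : Matrix α α ℂ) (N : Matrix α β ℂ) (P : Matrix α α ℂ) (Q : Matrix β β ℂ)
    (g1 g2 : α → ℝ) :
    tf P Q (psi U N g1) (psi U N g2) =
      ∑ i, ∑ j, ((g1 i * g2 j : ℝ) : ℂ) * ((Uᴴ * P * U) i j * (N * Q * Nᴴ) j i) := by
  have : tf P Q (psi U N g1) (psi U N g2) =
      trace (diagonal (fun i => (g1 i : ℂ)) * (Uᴴ * P * U) * diagonal (fun i => (g2 i : ℂ)) *
        (N * Q * Nᴴ)) := by
    unfold tf psi
    have hd : (diagonal (fun i => (g1 i : ℂ)))ᴴ = diagonal (fun i => (g1 i : ℂ)) := by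
      rw [diagonal_conjTranspose]
      congr 1
      ext i
      simp
    rw [conjTranspose_mul, conjTranspose_mul, hd]
    simp only [Matrix.mul_assoc]
    rw [trace_mul_comm]
    simp only [Matrix.mul_assoc]
  rw [this]
  generalize Uᴴ * P * U = x
  generalize N * Q * Nᴴ = Y
  simp only [trace, diag, Matrix.mul_apply (M := diagonal _ * x * diagonal _), mul_diagonal,
    diagonal_mul]
  refine Finset.sum_congr rfl fun i _ => Finset.sum_congr rfl fun j _ => ?_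
  push_cast
  ring

/-- the double commutator form -/
noncomputable def dc (U : Matrix α α ℂ) (N : Matrix α β ℂ) (r f : α → ℝ)
    (P : Matrix α α ℂ) (Q : Matrix β β ℂ) : ℂ :=
  tf P Q (psi U N fun i => f i * r i) (psi U N fun i => f i * r i) -
    (1 / 2) * tf P Q (psi U N fun i => f i ^ 2 * r i) (psi U N r) -
    (1 / 2) * tf P Q (psi U N r) (psi U N fun i => f i ^ 2 * r i)

lemma dc_eq (U : Matrix α α ℂ) (N : Matrix α β ℂ) (r f : α → ℝ)
    (P : Matrix α α ℂ) (Q : Matrix β β ℂ) :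
    dc U N r f P Q = ∑ i, ∑ j, ((-(1 / 2) * ((f i - f j) ^ 2 * (r i * r j)) : ℝ) : ℂ) *
      ((Uᴴ * P * U) i j * (N * Q * Nᴴ) j i) := by
  unfold dc
  simp only [tf_psi, Finset.mul_sum, ← Finset.sum_sub_distrib]
  refine Finset.sum_congr rfl fun i _ => Finset.sum_congr rfl fun j _ => ?_
  push_cast
  ring

lemma dc_left (U : Matrix α α ℂ) (N : Matrix α β ℂ) (r f : α → ℝ) (P : Matrix α α ℂ)
    (D : α → ℂ) (hN : N * Nᴴ = diagonal D) : dc U N r f P 1 = 0 := by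
  rw [dc_eq]
  refine Finset.sum_eq_zero fun i _ => Finset.sum_eq_zero fun j _ => ?_
  rw [Matrix.mul_one, hN]
  by_cases h : j = i
  · subst h
    simp
  · simp [diagonal_apply_ne _ h]

lemma dc_right (U : Matrix α α ℂ) (N : Matrix α β ℂ) (r f : α → ℝ) (Q : Matrix β β ℂ)
    (hU : Uᴴ * U = 1) : dc U N r f 1 Q = 0 := by
  rw [dc_eq]
  refine Finset.sum_eq_zero fun i _ => Finset.sum_eq_zero fun j _ => ?_
  rw [Matrix.mul_one, hU]
  by_cases h : i = j
  · subst h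
    simp
  · simp [one_apply_ne h]

lemma dc_le (U : Matrix α α ℂ) (N : Matrix α β ℂ) (r f μ : α → ℝ) (c : ℝ)
    (P : Matrix α α ℂ) (Q : Matrix β β ℂ) (hU : Bi U) (hN : Bi N) (hP : Bi P) (hQ : Bi Q)
    (hr : ∀ i, 0 ≤ r i) (hμ : ∀ i, 0 ≤ μ i) (hc : 0 ≤ c)
    (h : ∀ i j, (f i - f j) ^ 2 * (r i * r j) ≤ c * (μ i + μ j)) :
    ‖dc U N r f P Q‖ ≤ c * ∑ i, μ i := by
  rw [dc_eq]
  have hx : Bi (Uᴴ * P * U) := (hU.ct.mul hP).mul hU
  have hY : Bi (N * Q * Nᴴ) := (hN.mul hQ).mul hN.ct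
  generalize Uᴴ * P * U = x at hx
  generalize N * Q * Nᴴ = Y at hY
  have key : ∀ i j, ‖((-(1 / 2) * ((f i - f j) ^ 2 * (r i * r j)) : ℝ) : ℂ) * (x i j * Y j i)‖ ≤
      c / 4 * (μ i * ‖x i j‖ ^ 2 + μ j * ‖x i j‖ ^ 2 + μ i * ‖Y j i‖ ^ 2 + μ j * ‖Y j i‖ ^ 2) := by
    intro i j
    rw [norm_mul, norm_mul, Complex.norm_real, Real.norm_eq_abs]
    have h0 : 0 ≤ (f i - f j) ^ 2 * (r i * r j) := mul_nonneg (sq_nonneg _) (mul_nonneg (hr i) (hr j))
    rw [abs_of_nonpos (by linarith)]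
    have h1 : ‖x i j‖ * ‖Y j i‖ ≤ (‖x i j‖ ^ 2 + ‖Y j i‖ ^ 2) / 2 := by
      nlinarith [sq_nonneg (‖x i j‖ - ‖Y j i‖)]
    have h2 : 0 ≤ ‖x i j‖ * ‖Y j i‖ := by positivity
    have h3 : 0 ≤ c * (μ i + μ j) := mul_nonneg hc (add_nonneg (hμ i) (hμ j))
    calc _ ≤ (c * (μ i + μ j) / 2) * (‖x i j‖ * ‖Y j i‖) :=
          mul_le_mul_of_nonneg_right (by linarith [h i j]) h2
      _ ≤ (c * (μ i + μ j) / 2) * ((‖x i j‖ ^ 2 + ‖Y j i‖ ^ 2) / 2) :=
          mul_le_mul_of_nonneg_left h1 (by linarith)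
      _ = _ := by ring
  have s1 : ∑ i, ∑ j, μ i * ‖x i j‖ ^ 2 ≤ ∑ i, μ i :=
    Finset.sum_le_sum fun i _ => by
      rw [← Finset.mul_sum]; exact mul_le_of_le_one_right (hμ i) (hx.row i)
  have s2 : ∑ i, ∑ j, μ j * ‖x i j‖ ^ 2 ≤ ∑ i, μ i := by
    rw [Finset.sum_comm]
    exact Finset.sum_le_sum fun i _ => by
      rw [← Finset.mul_sum]; exact mul_le_of_le_one_right (hμ i) (hx.col i)
  have s3 : ∑ i, ∑ j, μ i * ‖Y j i‖ ^ 2 ≤ ∑ i, μ i :=
    Finset.sum_le_sum fun i _ => by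
      rw [← Finset.mul_sum]; exact mul_le_of_le_one_right (hμ i) (hY.col i)
  have s4 : ∑ i, ∑ j, μ j * ‖Y j i‖ ^ 2 ≤ ∑ i, μ i := by
    rw [Finset.sum_comm]
    exact Finset.sum_le_sum fun i _ => by
      rw [← Finset.mul_sum]; exact mul_le_of_le_one_right (hμ i) (hY.row i)
  calc _ ≤ ∑ i, ∑ j, c / 4 * (μ i * ‖x i j‖ ^ 2 + μ j * ‖x i j‖ ^ 2 + μ i * ‖Y j i‖ ^ 2 +
          μ j * ‖Y j i‖ ^ 2) :=
        (norm_sum_le _ _).trans (Finset.sum_le_sum fun i _ =>
          (norm_sum_le _ _).trans (Finset.sum_le_sum fun j _ => key i j))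
    _ = c / 4 * (∑ i, ∑ j, μ i * ‖x i j‖ ^ 2 + ∑ i, ∑ j, μ j * ‖x i j‖ ^ 2 +
          ∑ i, ∑ j, μ i * ‖Y j i‖ ^ 2 + ∑ i, ∑ j, μ j * ‖Y j i‖ ^ 2) := by
        simp only [← Finset.sum_add_distrib, Finset.mul_sum]
    _ ≤ c / 4 * (∑ i, μ i + ∑ i, μ i + ∑ i, μ i + ∑ i, μ i) :=
        mul_le_mul_of_nonneg_left (by linarith) (by linarith)
    _ = _ := by ring

/-- Schmidt decomposition along the eigenbasis of W Wᴴ -/
lemma schmidt (W : Matrix α β ℂ) (ρ : Matrix α α ℂ) (hW : ρ = W * Wᴴ) (hρ : ρ.IsHermitian) :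
    ∃ (U : Matrix α α ℂ) (N : Matrix α β ℂ), Uᴴ * U = 1 ∧ Bi U ∧ Bi N ∧
      (∀ i, 0 ≤ hρ.eigenvalues i) ∧
      N * Nᴴ = diagonal (fun i => if hρ.eigenvalues i = 0 then (0 : ℂ) else 1) ∧
      W = psi U N fun i => √(hρ.eigenvalues i) := by
  set U : Matrix α α ℂ := (hρ.eigenvectorUnitary : Matrix α α ℂ) with hUdef
  have hU1 : Uᴴ * U = 1 := by
    have := hρ.eigenvectorUnitary.2.1
    simpa [star_eq_conjTranspose] using this
  have hU2 : U * Uᴴ = 1 := by
    have := hρ.eigenvectorUnitary.2.2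
    simpa [star_eq_conjTranspose] using this
  have hd : Uᴴ * ρ * U = diagonal (fun i => (hρ.eigenvalues i : ℂ)) := by
    have := hρ.conjStarAlgAut_star_eigenvectorUnitary
    rw [Unitary.conjStarAlgAut_apply] at this
    simpa [star_eq_conjTranspose, Function.comp_def] using this
  have hpos : ∀ i, 0 ≤ hρ.eigenvalues i := by
    have : ρ.PosSemidef := hW ▸ posSemidef_self_mul_conjTranspose W
    exact fun i => this.eigenvalues_nonneg i
  set lam := hρ.eigenvalues with hlam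
  set W' := Uᴴ * W with hW'
  have hWW : W' * W'ᴴ = diagonal (fun i => (lam i : ℂ)) := by
    rw [← hd, hW, hW']
    simp [Matrix.mul_assoc]
  have hz : ∀ i, lam i = 0 → ∀ b, W' i b = 0 := by
    intro i hi b
    have h1 := congrFun (congrFun hWW i) i
    simp only [Matrix.mul_apply, conjTranspose_apply, diagonal_apply_eq, hi] at h1
    have h2 : ((∑ j, ‖W' i j‖ ^ 2 : ℝ) : ℂ) = 0 := by
      rw [← Complex.ofReal_zero, ← h1]
      simp [Complex.mul_conj, Complex.normSq_eq_norm_sq]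
    have h3 : ∑ j, ‖W' i j‖ ^ 2 = 0 := by exact_mod_cast h2
    have := (Finset.sum_eq_zero_iff_of_nonneg (fun j _ => sq_nonneg _)).mp h3 b (Finset.mem_univ _)
    simpa using this
  set N := diagonal (fun i => (((√(lam i))⁻¹ : ℝ) : ℂ)) * W' with hN
  have hNN : N * Nᴴ = diagonal (fun i => if lam i = 0 then (0 : ℂ) else 1) := by
    have : N * Nᴴ = diagonal (fun i => (((√(lam i))⁻¹ : ℝ) : ℂ)) * (W' * W'ᴴ) *
        (diagonal (fun i => (((√(lam i))⁻¹ : ℝ) : ℂ)))ᴴ := by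
      rw [hN, conjTranspose_mul]
      simp only [Matrix.mul_assoc]
    rw [this, hWW, diagonal_conjTranspose, diagonal_mul_diagonal, diagonal_mul_diagonal]
    congr 1
    ext i
    by_cases hi : lam i = 0
    · simp [hi]
    · have h0 : 0 < lam i := lt_of_le_of_ne (hpos i) (Ne.symm hi)
      have hs : √(lam i) ≠ 0 := (Real.sqrt_pos.mpr h0).ne'
      have : (√(lam i))⁻¹ * lam i * (√(lam i))⁻¹ = 1 := by
        have := Real.mul_self_sqrt h0.le
        field_simp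
        nlinarith
      simp only [hi, if_false, Pi.star_apply, Complex.star_def, Complex.conj_ofReal]
      exact_mod_cast this
  refine ⟨U, N, hU1, bi_of _ (by rw [hU2, Matrix.one_mul]), bi_of _ ?_, hpos, hNN, ?_⟩
  · rw [hNN]
    ext i b
    rw [diagonal_mul]
    by_cases hi : lam i = 0
    · simp [hi, hN, diagonal_mul, hz i hi b]
    · simp [hi]
  · have : diagonal (fun i => ((√(lam i) : ℝ) : ℂ)) * N = W' := by
      ext i b
      rw [diagonal_mul, hN, diagonal_mul]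
      by_cases hi : lam i = 0
      · simp [hz i hi b]
      · have h0 : 0 < lam i := lt_of_le_of_ne (hpos i) (Ne.symm hi)
        have hs : ((√(lam i) : ℝ) : ℂ) ≠ 0 := by exact_mod_cast (Real.sqrt_pos.mpr h0).ne'
        push_cast
        field_simp
    unfold psi
    rw [Matrix.mul_assoc, this, hW', ← Matrix.mul_assoc, hU2, Matrix.one_mul]

lemma tf_one (U : Matrix α α ℂ) (N : Matrix α β ℂ) (lam g1 g2 : α → ℝ) (hU : Uᴴ * U = 1)
    (hN : N * Nᴴ = diagonal (fun i => if lam i = 0 then (0 : ℂ) else 1))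
    (hg : ∀ i, lam i = 0 → g2 i = 0) :
    tf 1 1 (psi U N g1) (psi U N g2) = ((∑ i, g1 i * g2 i : ℝ) : ℂ) := by
  rw [tf_psi, Matrix.mul_one, Matrix.mul_one, hU, hN]
  push_cast
  refine Finset.sum_congr rfl fun i _ => ?_
  rw [Finset.sum_eq_single i]
  · by_cases hi : lam i = 0
    · simp [hg i hi]
    · simp [hi]
  · intro j _ hj
    simp [one_apply_ne (Ne.symm hj)]
  · simp

end Core

end Vale.Agent.P356
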