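import Mathlib

namespace Vale.Agent.P356

open Real

lemma sq_le_exp (z : ℝ) : z ^ 2 ≤ 2 * exp |z| := by
  have := Real.quadratic_le_exp_of_nonneg (abs_nonneg z)
  rw [sq_abs] at this
  nlinarith [abs_nonneg z]

lemma exp_abs_le (w : ℝ) : exp |w| ≤ exp w + exp (-w) := by
  rcases abs_cases w with h | h <;> rw [h.1] <;> linarith [exp_pos w, exp_pos (-w)]

lemma sinh_sq (y : ℝ) : (exp y - exp (-y)) ^ 2 ≤ 4 * y ^ 2 * exp (2 * |y|) := by
  have key : ∀ y : ℝ, 0 ≤ y → (exp y - exp (-y)) ^ 2 ≤ 4 * y ^ 2 * exp (2 * y) := by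
    intro y hy
    have h1 : exp (-y) = exp y * exp (-(2 * y)) := by rw [← exp_add]; congr 1; ring
    have h2 : 1 - 2 * y ≤ exp (-(2 * y)) := by linarith [add_one_le_exp (-(2 * y))]
    have h3 : exp (-y) ≤ exp y := exp_le_exp.mpr (by linarith)
    have h4 : exp y - exp (-y) ≤ 2 * y * exp y := by rw [h1]; nlinarith [exp_pos y]
    have h5 : exp (2 * y) = exp y ^ 2 := by rw [← exp_nat_mul]; norm_num
    rw [h5]
    calc _ ≤ (2 * y * exp y) ^ 2 := pow_le_pow_left₀ (by linarith) h4 2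
      _ = _ := by ring
  rcases abs_cases y with h | h
  · rw [h.1]; exact key y h.2
  · rw [h.1]
    have := key (-y) (by linarith [h.2])
    rw [neg_neg] at this
    nlinarith

lemma core1 (u v : ℝ) : (u - v) ^ 2 * (exp (u / 2) * exp (v / 2)) ≤ 8 * (exp u + exp v) := by
  have h1 := sq_le_exp ((u - v) / 2)
  have h2 := exp_abs_le ((u - v) / 2)
  have e1 : exp u = exp ((u - v) / 2) * (exp (u / 2) * exp (v / 2)) := by
    rw [← exp_add, ← exp_add]; congr 1; ring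
  have e2 : exp v = exp (-((u - v) / 2)) * (exp (u / 2) * exp (v / 2)) := by
    rw [← exp_add, ← exp_add]; congr 1; ring
  have hp : 0 < exp (u / 2) * exp (v / 2) := by positivity
  rw [e1, e2]
  generalize exp (u / 2) * exp (v / 2) = g at hp
  nlinarith

lemma core2 (x θ : ℝ) (hθ : |θ| ≤ 1 / 4) :
    (exp (θ * x / 4) - exp (-(θ * x / 4))) ^ 2 ≤
      8 * θ ^ 2 * (exp (-((1 - θ) * x / 2)) + exp (-(-((1 - θ) * x / 2)))) := by
  have h1 := sinh_sq (θ * x / 4)
  have h2 := exp_abs_le (-((1 - θ) * x / 2))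
  have h3 := sq_le_exp (x / 4)
  have a1 : 2 * |θ * x / 4| ≤ |x| / 8 := by
    rw [abs_div, abs_mul, abs_of_pos (by norm_num : (0 : ℝ) < 4)]
    nlinarith [abs_nonneg x]
  have a2 : 3 * |x| / 8 ≤ |-((1 - θ) * x / 2)| := by
    rw [abs_neg, abs_div, abs_mul, abs_of_pos (by norm_num : (0 : ℝ) < 2)]
    have : 3 / 4 ≤ |1 - θ| := le_trans (by linarith [(abs_le.mp hθ).2]) (le_abs_self _)
    nlinarith [abs_nonneg x]
  have a3 : |x / 4| = |x| / 4 := by rw [abs_div, abs_of_pos (by norm_num : (0 : ℝ) < 4)]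
  rw [a3] at h3
  have e : exp (3 * |x| / 8) = exp (|x| / 4) * exp (|x| / 8) := by rw [← exp_add]; congr 1; ring
  have b1 := exp_le_exp.mpr a1
  have b2 := exp_le_exp.mpr a2
  calc _ ≤ 4 * (θ * x / 4) ^ 2 * exp (|x| / 8) :=
        h1.trans (mul_le_mul_of_nonneg_left b1 (by positivity))
    _ = 4 * θ ^ 2 * exp (|x| / 8) * (x / 4) ^ 2 := by ring
    _ ≤ 4 * θ ^ 2 * exp (|x| / 8) * (2 * exp (|x| / 4)) :=
        mul_le_mul_of_nonneg_left h3 (by positivity)
    _ = 8 * θ ^ 2 * exp (3 * |x| / 8) := by rw [e]; ring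
    _ ≤ _ := mul_le_mul_of_nonneg_left (b2.trans h2) (by positivity)

lemma core3 (u v S θ : ℝ) (hθ : |θ| ≤ 1 / 4) :
    (exp (θ / 2 * (-u - S)) - exp (θ / 2 * (-v - S))) ^ 2 * (exp (u / 2) * exp (v / 2)) ≤
      8 * θ ^ 2 * (exp u * exp (θ * (-u - S)) + exp v * exp (θ * (-v - S))) := by
  have h := core2 (v - u) θ hθ
  set m := θ / 2 * (-(u + v) / 2 - S) with hm
  have e1 : exp (θ / 2 * (-u - S)) = exp m * exp (θ * (v - u) / 4) := by
    rw [← exp_add]; congr 1; rw [hm]; ring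
  have e2 : exp (θ / 2 * (-v - S)) = exp m * exp (-(θ * (v - u) / 4)) := by
    rw [← exp_add]; congr 1; rw [hm]; ring
  have e3 : exp u * exp (θ * (-u - S)) =
      exp m ^ 2 * (exp (u / 2) * exp (v / 2)) * exp (-((1 - θ) * (v - u) / 2)) := by
    rw [sq]; simp only [← exp_add]; congr 1; rw [hm]; ring
  have e4 : exp v * exp (θ * (-v - S)) =
      exp m ^ 2 * (exp (u / 2) * exp (v / 2)) * exp (-(-((1 - θ) * (v - u) / 2))) := by
    rw [sq]; simp only [← exp_add]; congr 1; rw [hm]; ring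
  rw [e1, e2, e3, e4]
  have hp : 0 ≤ exp m ^ 2 * (exp (u / 2) * exp (v / 2)) := by positivity
  have := mul_le_mul_of_nonneg_left h hp
  calc _ = _ := by ring
    _ ≤ _ := this
    _ = _ := by ring

lemma sqrt_eq_exp {a : ℝ} (ha : 0 < a) : √a = exp (log a / 2) := by
  rw [Real.sqrt_eq_iff_mul_self_eq ha.le (exp_pos _).le, ← exp_add, add_halves, exp_log ha]

section
variable {ι : Type} [Fintype ι] (lam : ι → ℝ) (a : ℝ)

/-- the Poincare property of the Schmidt weights -/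
def Poin : Prop := ∀ (f μ : ι → ℝ) (c : ℝ), (∀ i, 0 ≤ μ i) → 0 ≤ c →
  (∀ i j, (f i - f j) ^ 2 * (√(lam i) * √(lam j)) ≤ c * (μ i + μ j)) →
  ∑ i, lam i * f i ^ 2 - (∑ i, lam i * f i) ^ 2 ≤ a * (c * ∑ i, μ i)

noncomputable def kap (i : ι) : ℝ := -log (lam i) - ∑ j, -(lam j * log (lam j))

lemma kap_mean (h1 : ∑ i, lam i = 1) : ∑ i, lam i * kap lam i = 0 := by
  simp only [kap, mul_sub, Finset.sum_sub_distrib, ← Finset.sum_mul, h1, mul_neg]
  ring

lemma var_le (h0 : ∀ i, 0 ≤ lam i) (h1 : ∑ i, lam i = 1) (hP : Poin lam a) :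
    ∑ i, lam i * kap lam i ^ 2 ≤ 8 * a := by
  have := hP (kap lam) lam 8 h0 (by norm_num) fun i j => by
    rcases (h0 i).eq_or_lt with hi | hi
    · rw [← hi]; simp; linarith [h0 j]
    rcases (h0 j).eq_or_lt with hj | hj
    · rw [← hj]; simp; linarith [h0 i]
    have := core1 (log (lam i)) (log (lam j))
    rw [exp_log hi, exp_log hj, ← sqrt_eq_exp hi, ← sqrt_eq_exp hj] at this
    convert this using 2
    simp only [kap]; ring
  rw [kap_mean lam h1, h1] at this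
  linarith

noncomputable def mgf (θ : ℝ) : ℝ := ∑ i, lam i * exp (θ * kap lam i)

lemma mgf_ge (h0 : ∀ i, 0 ≤ lam i) (h1 : ∑ i, lam i = 1) (θ : ℝ) : 1 ≤ mgf lam θ := by
  have : ∑ i, lam i * (θ * kap lam i + 1) ≤ mgf lam θ :=
    Finset.sum_le_sum fun i _ => mul_le_mul_of_nonneg_left (add_one_le_exp _) (h0 i)
  have e : ∑ i, lam i * (θ * kap lam i + 1) = θ * ∑ i, lam i * kap lam i + ∑ i, lam i := by
    rw [Finset.mul_sum, ← Finset.sum_add_distrib]
    exact Finset.sum_congr rfl fun i _ => by ring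
  rw [e, kap_mean lam h1, h1] at this
  linarith

lemma mgf_step (h0 : ∀ i, 0 ≤ lam i) (h1 : ∑ i, lam i = 1) (hP : Poin lam a) (θ : ℝ)
    (hθ : |θ| ≤ 1 / 4) (ha : 0 ≤ a) (haθ : 8 * a * θ ^ 2 ≤ 1 / 2) :
    log (mgf lam θ) ≤ 2 * log (mgf lam (θ / 2)) + 16 * a * θ ^ 2 := by
  have := hP (fun i => exp (θ / 2 * kap lam i)) (fun i => lam i * exp (θ * kap lam i))
    (8 * θ ^ 2) (fun i => mul_nonneg (h0 i) (exp_pos _).le) (by positivity) fun i j => by
    have pi := mul_nonneg (h0 i) (exp_pos (θ * kap lam i)).le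
    have pj := mul_nonneg (h0 j) (exp_pos (θ * kap lam j)).le
    rcases (h0 i).eq_or_lt with hi | hi
    · have : √(lam i) = 0 := by rw [← hi]; simp
      rw [this, zero_mul, mul_zero]; positivity
    rcases (h0 j).eq_or_lt with hj | hj
    · have : √(lam j) = 0 := by rw [← hj]; simp
      rw [this, mul_zero, mul_zero]; positivity
    have := core3 (log (lam i)) (log (lam j)) (∑ j, -(lam j * log (lam j))) θ hθ
    rw [exp_log hi, exp_log hj, ← sqrt_eq_exp hi, ← sqrt_eq_exp hj] at this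
    exact this
  have e : ∑ i, lam i * exp (θ / 2 * kap lam i) ^ 2 = mgf lam θ :=
    Finset.sum_congr rfl fun i _ => by rw [sq, ← exp_add]; congr 2; ring
  rw [e] at this
  change mgf lam θ - mgf lam (θ / 2) ^ 2 ≤ a * (8 * θ ^ 2 * mgf lam θ) at this
  have p1 := mgf_ge lam h0 h1 θ
  have p2 := mgf_ge lam h0 h1 (θ / 2)
  set y := 8 * a * θ ^ 2 with hy
  have hy0 : 0 ≤ y := by positivity
  have h2 : mgf lam θ ≤ mgf lam (θ / 2) ^ 2 * exp (2 * y) := by
    have h3 : (1 - y) * mgf lam θ ≤ mgf lam (θ / 2) ^ 2 := by rw [hy]; linarith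
    have h4 : 1 ≤ (1 - y) * exp (2 * y) := by nlinarith [add_one_le_exp (2 * y)]
    calc mgf lam θ ≤ (1 - y) * exp (2 * y) * mgf lam θ := le_mul_of_one_le_left (by linarith) h4
      _ = (1 - y) * mgf lam θ * exp (2 * y) := by ring
      _ ≤ _ := mul_le_mul_of_nonneg_right h3 (exp_pos _).le
  have := log_le_log (by linarith) h2
  rw [log_mul (by positivity) (exp_pos _).ne', log_pow, log_exp] at this
  push_cast at this
  rw [hy] at this
  linarith

lemma mgf_iter (h0 : ∀ i, 0 ≤ lam i) (h1 : ∑ i, lam i = 1) (hP : Poin lam a) (θ : ℝ)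
    (hθ : |θ| ≤ 1 / 4) (ha : 0 ≤ a) (haθ : 8 * a * θ ^ 2 ≤ 1 / 2) (n : ℕ) :
    log (mgf lam θ) ≤ 2 ^ n * log (mgf lam (θ / 2 ^ n)) + 32 * a * θ ^ 2 * (1 - 1 / 2 ^ n) := by
  induction n with
  | zero => simp
  | succ n ih =>
    have hn : (1 : ℝ) ≤ 2 ^ n := one_le_pow₀ (by norm_num)
    have hs := mgf_step lam a h0 h1 hP (θ / 2 ^ n) (by
      rw [abs_div, abs_of_pos (by positivity : (0 : ℝ) < 2 ^ n)]
      exact (div_le_self (abs_nonneg _) hn).trans hθ) ha (by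
      rw [div_pow]
      have : θ ^ 2 / (2 ^ n) ^ 2 ≤ θ ^ 2 := div_le_self (sq_nonneg _) (one_le_pow₀ hn)
      nlinarith)
    rw [div_div, ← pow_succ] at hs
    have := mul_le_mul_of_nonneg_left hs (by positivity : (0 : ℝ) ≤ 2 ^ n)
    have e : (2 : ℝ) ^ n * (2 * log (mgf lam (θ / 2 ^ (n + 1))) + 16 * a * (θ / 2 ^ n) ^ 2) +
        32 * a * θ ^ 2 * (1 - 1 / 2 ^ n) = 2 ^ (n + 1) * log (mgf lam (θ / 2 ^ (n + 1))) +
        32 * a * θ ^ 2 * (1 - 1 / 2 ^ (n + 1)) := by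
      generalize log (mgf lam (θ / 2 ^ (n + 1))) = l
      field_simp
      ring
    linarith

lemma mgf_small (h0 : ∀ i, 0 ≤ lam i) (h1 : ∑ i, lam i = 1) (η : ℝ)
    (hη : ∀ i, |η * kap lam i| ≤ 1) :
    log (mgf lam η) ≤ η ^ 2 * ∑ i, lam i * kap lam i ^ 2 := by
  have : mgf lam η ≤ ∑ i, lam i * (1 + η * kap lam i + (η * kap lam i) ^ 2) :=
    Finset.sum_le_sum fun i _ => mul_le_mul_of_nonneg_left (by
      have := (abs_le.mp (Real.abs_exp_sub_one_sub_id_le (hη i))).2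
      linarith) (h0 i)
  have e : ∑ i, lam i * (1 + η * kap lam i + (η * kap lam i) ^ 2) =
      ∑ i, lam i + η * ∑ i, lam i * kap lam i + η ^ 2 * ∑ i, lam i * kap lam i ^ 2 := by
    rw [Finset.mul_sum, Finset.mul_sum, ← Finset.sum_add_distrib, ← Finset.sum_add_distrib]
    exact Finset.sum_congr rfl fun i _ => by ring
  rw [e, kap_mean lam h1, h1] at this
  have := Real.log_le_sub_one_of_pos (lt_of_lt_of_le one_pos (mgf_ge lam h0 h1 η))
  linarith

lemma mgf_le (h0 : ∀ i, 0 ≤ lam i) (h1 : ∑ i, lam i = 1) (hP : Poin lam a) (θ : ℝ)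
    (hθ : |θ| ≤ 1 / 4) (ha : 0 ≤ a) (haθ : 8 * a * θ ^ 2 ≤ 1 / 2) : mgf lam θ ≤ exp 2 := by
  have hl : log (mgf lam θ) ≤ 2 := by
    refine le_of_forall_pos_le_add fun ε hε => ?_
    set B := ∑ i, lam i * kap lam i ^ 2 with hB
    set T := ∑ i, |θ * kap lam i| with hT
    obtain ⟨n, hn⟩ := pow_unbounded_of_one_lt (T + θ ^ 2 * B / ε) (by norm_num : (1 : ℝ) < 2)
    have hB0 : 0 ≤ B := Finset.sum_nonneg fun i _ => mul_nonneg (h0 i) (sq_nonneg _)
    have hT0 : 0 ≤ T := Finset.sum_nonneg fun i _ => abs_nonneg _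
    have hq : 0 ≤ θ ^ 2 * B / ε := by positivity
    have hp : (0 : ℝ) < 2 ^ n := by positivity
    have h2 := mgf_small lam h0 h1 (θ / 2 ^ n) fun i => by
      have : |θ * kap lam i| ≤ T :=
        Finset.single_le_sum (f := fun i => |θ * kap lam i|) (fun i _ => abs_nonneg _)
          (Finset.mem_univ i)
      rw [div_mul_eq_mul_div, abs_div, abs_of_pos hp, div_le_one hp]
      linarith
    have h3 := mgf_iter lam a h0 h1 hP θ hθ ha haθ n
    have h4 : (2 : ℝ) ^ n * ((θ / 2 ^ n) ^ 2 * B) ≤ ε := by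
      have e : (2 : ℝ) ^ n * ((θ / 2 ^ n) ^ 2 * B) = θ ^ 2 * B / 2 ^ n := by field_simp
      rw [e, div_le_iff₀ hp]
      have : θ ^ 2 * B / ε ≤ 2 ^ n := by linarith
      rw [div_le_iff₀ hε] at this
      linarith
    have h5 := mul_le_mul_of_nonneg_left h2 hp.le
    have h6 : 32 * a * θ ^ 2 * (1 - 1 / 2 ^ n) ≤ 2 := by
      have : 0 ≤ a * θ ^ 2 * (1 / 2 ^ n) := by positivity
      nlinarith
    linarith
  rw [← exp_log (lt_of_lt_of_le one_pos (mgf_ge lam h0 h1 θ))]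
  exact exp_le_exp.mpr hl

open Classical in
lemma tail_le (h0 : ∀ i, 0 ≤ lam i) (h1 : ∑ i, lam i = 1) (hP : Poin lam a) (ha : 0 ≤ a)
    (w : ℝ) (hw : 16 * (1 + a) ≤ w) (t : ℝ) :
    ∑ i ∈ Finset.univ.filter (fun i => t ≤ |kap lam i|), lam i ≤ 15 * exp (-(t / √w)) := by
  have hw0 : 0 < w := by linarith
  have hs : 0 < √w := sqrt_pos.mpr hw0
  have hss : √w ^ 2 = w := sq_sqrt hw0.le
  have h4 : 4 ≤ √w := by
    rw [le_sqrt (by norm_num) hw0.le]; linarith
  set θ := 1 / √w with hθ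
  have hθ0 : 0 < θ := by positivity
  have hθ1 : θ ≤ 1 / 4 := one_div_le_one_div_of_le (by norm_num) h4
  have hθ2 : 8 * a * θ ^ 2 ≤ 1 / 2 := by
    rw [hθ, div_pow, hss, one_pow, mul_one_div, div_le_iff₀ hw0]
    linarith
  have m1 := mgf_le lam a h0 h1 hP θ (by rwa [abs_of_pos hθ0]) ha hθ2
  have m2 := mgf_le lam a h0 h1 hP (-θ) (by rwa [abs_neg, abs_of_pos hθ0]) ha (by rwa [neg_sq])
  have he : exp 2 ≤ 15 / 2 := by
    have h := Real.exp_one_lt_d9
    have : exp 2 = exp 1 * exp 1 := by rw [← exp_add]; norm_num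
    rw [this]
    nlinarith [exp_pos 1]
  have et : t / √w = θ * t := by rw [hθ]; ring
  calc _ ≤ ∑ i ∈ Finset.univ.filter (fun i => t ≤ |kap lam i|),
          exp (-(θ * t)) * (lam i * exp (θ * kap lam i) + lam i * exp (-θ * kap lam i)) := by
        refine Finset.sum_le_sum fun i hi => ?_
        have hi := (Finset.mem_filter.mp hi).2
        have h2 := exp_abs_le (θ * kap lam i)
        rw [abs_mul, abs_of_pos hθ0] at h2
        have h3 : exp (θ * t) ≤ exp (θ * |kap lam i|) :=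
          exp_le_exp.mpr (mul_le_mul_of_nonneg_left hi hθ0.le)
        have h5 : exp (-(θ * t)) * exp (θ * t) = 1 := by rw [← exp_add]; simp
        rw [neg_mul, ← mul_add, mul_left_comm]
        refine le_mul_of_one_le_right (h0 i) ?_
        rw [← h5]
        exact mul_le_mul_of_nonneg_left (h3.trans h2) (exp_pos _).le
    _ ≤ ∑ i, exp (-(θ * t)) * (lam i * exp (θ * kap lam i) + lam i * exp (-θ * kap lam i)) :=
        Finset.sum_le_sum_of_subset_of_nonneg (Finset.filter_subset _ _) fun i _ _ => by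
          have := h0 i
          positivity
    _ = exp (-(θ * t)) * (mgf lam θ + mgf lam (-θ)) := by
        rw [← Finset.mul_sum, Finset.sum_add_distrib]; rfl
    _ ≤ exp (-(θ * t)) * 15 := mul_le_mul_of_nonneg_left (by linarith) (exp_pos _).le
    _ = _ := by rw [et, mul_comm]

end

end Vale.Agent.P356
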