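import Vale.Agent.P356.Poin
import Vale.Agent.P356.Tail

namespace Vale.Agent.P356

open Real

lemma crit {ι : Type} [Fintype ι] (lam : ι → ℝ) (a : ℝ) (h0 : ∀ i, 0 ≤ lam i)
    (h1 : ∑ i, lam i = 1) (hP : Poin lam a) (ha : 0 ≤ a) (w : ℝ) (hw : 16 * (1 + a) ≤ w)
    (I : Finset ι) (δ : ℝ) (hδ : 0 < δ) (hI : δ ≤ ∑ i ∈ I, lam i) :
    ∑ j, -(lam j * log (lam j)) ≤ log (2 * I.card / δ) + √w * log (30 / δ) := by
  classical
  set S := ∑ j, -(lam j * log (lam j)) with hS
  have hw0 : 0 < w := by linarith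
  have hs : 0 < √w := sqrt_pos.mpr hw0
  have hδ1 : δ ≤ 1 := hI.trans (h1 ▸ Finset.sum_le_sum_of_subset_of_nonneg (Finset.subset_univ _)
    fun i _ _ => h0 i)
  have hne : I.Nonempty := by
    by_contra hc
    rw [Finset.not_nonempty_iff_eq_empty.mp hc, Finset.sum_empty] at hI
    linarith
  have hc : (0 : ℝ) < I.card := by exact_mod_cast hne.card_pos
  set t := S - log (2 * I.card / δ) with ht
  have hT := tail_le lam a h0 h1 hP ha w hw t
  have hlow : δ / 2 ≤ ∑ i ∈ Finset.univ.filter (fun i => t ≤ |kap lam i|), lam i := by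
    have h2 : ∑ i ∈ I, lam i ≤ ∑ i ∈ I, ((if t ≤ |kap lam i| then lam i else 0) +
        δ / (2 * I.card)) := by
      refine Finset.sum_le_sum fun i _ => ?_
      split_ifs with hi
      · have : 0 ≤ δ / (2 * I.card) := by positivity
        linarith
      · by_contra hl
        apply hi
        have hl : δ / (2 * I.card) < lam i := by linarith
        have h3 := log_le_log (by positivity) hl.le
        have h4 : log (δ / (2 * I.card)) = -log (2 * I.card / δ) := by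
          rw [← log_inv, inv_div]
        refine le_trans ?_ (neg_le_abs _)
        simp only [kap]
        linarith
    rw [Finset.sum_add_distrib, Finset.sum_const, nsmul_eq_mul, ← Finset.sum_filter] at h2
    have h3 : (I.card : ℝ) * (δ / (2 * I.card)) = δ / 2 := by field_simp
    have h4 : ∑ i ∈ I.filter (fun i => t ≤ |kap lam i|), lam i ≤
        ∑ i ∈ Finset.univ.filter (fun i => t ≤ |kap lam i|), lam i :=
      Finset.sum_le_sum_of_subset_of_nonneg
        (Finset.filter_subset_filter _ (Finset.subset_univ _)) fun i _ _ => h0 i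
    linarith
  have h5 : δ / 30 ≤ exp (-(t / √w)) := by linarith
  have h6 := log_le_log (by positivity) h5
  rw [log_exp] at h6
  have h7 : log (δ / 30) = -log (30 / δ) := by rw [← log_inv, inv_div]
  have h8 : t / √w ≤ log (30 / δ) := by linarith
  rw [div_le_iff₀ hs] at h8
  linarith

open Classical in
theorem main (q R : ℕ) (hq : 2 ≤ q) : ∃ K : ℝ, 0 < K ∧ ∀ (J Δ : ℝ), 0 < J → 0 < Δ →
    ∀ (L : ℕ) (h : Finset (Site L) → Matrix (Conf L q) (Conf L q) ℂ) (Ω : Conf L q → ℂ),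
    Admissible R J h → Gapped (ham R h) Δ Ω → ∀ A : Finset (Site L),
      ∑ i, ev A Ω i * (-log (ev A Ω i) - ent A Ω) ^ 2 ≤ K * (J / Δ) * bdry A ∧
      (∀ t : ℝ, ∑ i ∈ Finset.univ.filter (fun i => t ≤ |-log (ev A Ω i) - ent A Ω|), ev A Ω i ≤
        15 * exp (-(t / √(K * (1 + J / Δ * bdry A))))) ∧
      ∀ (I : Finset ({x // x ∈ A} → Fin q)) (δ : ℝ), 0 < δ → δ ≤ ∑ i ∈ I, ev A Ω i →
        ent A Ω ≤ log (2 * I.card / δ) + √(K * (1 + J / Δ * bdry A)) * log (30 / δ) := by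
  obtain ⟨K0, hK0, hK⟩ : ∃ K0 : ℝ, 0 ≤ K0 ∧
      K0 = 2 ^ (2 * (2 * R) + 1) ^ 2 * ((q : ℝ) ^ (2 * R + 1) ^ 2) ^ 2 := ⟨_, by positivity, rfl⟩
  refine ⟨16 * (1 + K0), by positivity, fun J Δ hJ hΔ L h Ω hh hg A => ?_⟩
  obtain ⟨h0, h1, hP⟩ := poincare (by omega) R J Δ hJ.le h Ω hh hg A
  rw [← hK] at hP
  have hb : (0 : ℝ) ≤ J / Δ * bdry A := by positivity
  have hP' : Poin (ev A Ω) (K0 * (J / Δ * bdry A)) := by
    intro f μ c hμ hc hf
    have := hP f μ c hμ hc hf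
    rw [← le_div_iff₀' hΔ] at this
    refine this.trans (le_of_eq ?_)
    field_simp
  have ha : 0 ≤ K0 * (J / Δ * bdry A) := mul_nonneg hK0 hb
  have hw : 16 * (1 + K0 * (J / Δ * bdry A)) ≤ 16 * (1 + K0) * (1 + J / Δ * bdry A) := by
    nlinarith
  refine ⟨?_, fun t => ?_, fun I δ hδ hI => crit _ _ h0 h1 hP' ha _ hw I δ hδ hI⟩
  · have := var_le _ _ h0 h1 hP'
    refine le_trans this ?_
    rw [mul_assoc _ (J / Δ)]
    nlinarith
  · exact tail_le _ _ h0 h1 hP' ha _ hw t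

end Vale.Agent.P356
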