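import Vale.Agent.P356.Lin
import Vale.Agent.P356.Count

namespace Vale.Agent.P356

open Matrix
open scoped ComplexOrder

variable {L q : ℕ}

abbrev CA (q : ℕ) (A : Finset (Site L)) := {x // x ∈ A} → Fin q
abbrev CB (q : ℕ) (A : Finset (Site L)) := {x // x ∉ A} → Fin q

def rA (A : Finset (Site L)) (σ : Conf L q) : CA q A := fun x => σ x.1
def rB (A : Finset (Site L)) (σ : Conf L q) : CB q A := fun x => σ x.1

def eqv (A : Finset (Site L)) : CA q A × CB q A ≃ Conf L q where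
  toFun p := glue A p.1 p.2
  invFun σ := (rA A σ, rB A σ)
  left_inv p := by
    ext x
    · simp [rA, glue, x.2]
    · simp [rB, glue, x.2]
  right_inv σ := by
    ext x
    by_cases h : x ∈ A <;> simp [glue, rA, rB, h]

lemma rA_glue (A : Finset (Site L)) (a : CA q A) (b : CB q A) : rA A (glue A a b) = a := by
  ext x; simp [rA, glue, x.2]

lemma rB_glue (A : Finset (Site L)) (a : CA q A) (b : CB q A) : rB A (glue A a b) = b := by
  ext x; simp [rB, glue, x.2]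

lemma glue_r (A : Finset (Site L)) (σ : Conf L q) : glue A (rA A σ) (rB A σ) = σ :=
  (eqv A).right_inv σ

lemma sum_conf (A : Finset (Site L)) (F : Conf L q → ℂ) :
    ∑ σ, F σ = ∑ a : CA q A, ∑ b : CB q A, F (glue A a b) := by
  rw [← (eqv A).sum_comp, Fintype.sum_prod_type]
  rfl

def vec (A : Finset (Site L)) (V : Matrix (CA q A) (CB q A) ℂ) : Conf L q → ℂ :=
  fun σ => V (rA A σ) (rB A σ)

noncomputable def bf (A : Finset (Site L)) (h : Matrix (Conf L q) (Conf L q) ℂ)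
    (V W : Matrix (CA q A) (CB q A) ℂ) : ℂ := star (vec A V) ⬝ᵥ (h *ᵥ vec A W)

def tens (A : Finset (Site L)) (P : Matrix (CA q A) (CA q A) ℂ) (Q : Matrix (CB q A) (CB q A) ℂ) :
    Matrix (Conf L q) (Conf L q) ℂ := fun σ τ => P (rA A σ) (rA A τ) * Q (rB A τ) (rB A σ)

lemma bf_tens (A : Finset (Site L)) (P : Matrix (CA q A) (CA q A) ℂ)
    (Q : Matrix (CB q A) (CB q A) ℂ) (V W : Matrix (CA q A) (CB q A) ℂ) :
    bf A (tens A P Q) V W = tf P Q V W := by
  simp only [bf, tf, dotProduct, mulVec, trace, diag, Matrix.mul_apply, conjTranspose_apply,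
    Pi.star_apply, vec, tens]
  rw [sum_conf A]
  simp only [sum_conf A, rA_glue, rB_glue, Finset.mul_sum, Finset.sum_mul]
  rw [Finset.sum_comm]
  refine Finset.sum_congr rfl fun b _ => ?_
  rw [Finset.sum_comm]
  conv_rhs => rw [Finset.sum_comm]
  refine Finset.sum_congr rfl fun a' _ => ?_
  rw [Finset.sum_comm]
  refine Finset.sum_congr rfl fun b' _ => Finset.sum_congr rfl fun a _ => ?_
  ring

lemma tens_one (A : Finset (Site L)) : tens (q := q) A 1 1 = 1 := by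
  ext σ τ
  simp only [tens, one_apply]
  by_cases h : σ = τ
  · simp [h]
  · have : ¬ (rA A σ = rA A τ ∧ rB A τ = rB A σ) := by
      rintro ⟨h1, h2⟩
      apply h
      rw [← glue_r A σ, h1, ← h2, glue_r]
    by_cases h1 : rA A σ = rA A τ
    · have : ¬ rB A τ = rB A σ := fun h2 => this ⟨h1, h2⟩
      simp [h, this]
    · simp [h, h1]

/-- a and a' equal s and s' on X and agree off X -/
def rel (p : Site L → Prop) (X : Finset (Site L)) (s s' : {x // x ∈ X} → Fin q)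
    (a a' : {x // p x} → Fin q) : Prop :=
  ∀ x : {x // p x}, (∀ hx : x.1 ∈ X, a x = s ⟨x.1, hx⟩ ∧ a' x = s' ⟨x.1, hx⟩) ∧
    (x.1 ∉ X → a x = a' x)

lemma bi_rel (p : Site L → Prop) [Fintype ({x // p x} → Fin q)]
    [DecidableEq ({x // p x} → Fin q)] (X : Finset (Site L))
    (s s' : {x // x ∈ X} → Fin q) : Bi (ind (rel p X s s')) := by
  apply bi_ind
  · intro a b b' h1 h2
    funext x
    by_cases hx : x.1 ∈ X
    · rw [((h1 x).1 hx).2, ((h2 x).1 hx).2]
    · rw [← (h1 x).2 hx, ← (h2 x).2 hx]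
  · intro a a' b h1 h2
    funext x
    by_cases hx : x.1 ∈ X
    · rw [((h1 x).1 hx).1, ((h2 x).1 hx).1]
    · rw [(h1 x).2 hx, (h2 x).2 hx]

lemma ind_rel_one (p : Site L → Prop) [DecidableEq ({x // p x} → Fin q)] (X : Finset (Site L))
    (s s' : {x // x ∈ X} → Fin q) (h : ∀ x ∈ X, ¬ p x) : ind (rel p X s s') = 1 := by
  ext a a'
  have : rel p X s s' a a' ↔ a = a' := by
    constructor
    · intro hr
      funext x
      exact (hr x).2 fun hx => h _ hx x.2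
    · rintro rfl x
      exact ⟨fun hx => absurd x.2 (h _ hx), fun _ => rfl⟩
  simp [ind, this, one_apply]

lemma decomp (A X : Finset (Site L)) (h : Matrix (Conf L q) (Conf L q) ℂ)
    (m : Matrix ({x // x ∈ X} → Fin q) ({x // x ∈ X} → Fin q) ℂ)
    (hm : ∀ σ τ : Conf L q,
      h σ τ = if ∀ x, x ∉ X → σ x = τ x then m (fun x => σ x.1) (fun x => τ x.1) else 0) :
    h = ∑ s, ∑ s', m s s' • tens A (ind (rel (· ∈ A) X s s')) (ind (rel (· ∉ A) X s' s)) := by
  classical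
  ext σ τ
  have key : ∀ s s', (rel (· ∈ A) X s s' (rA A σ) (rA A τ) ∧ rel (· ∉ A) X s' s (rB A τ) (rB A σ)) ↔
      (s = (fun x => σ x.1) ∧ s' = (fun x => τ x.1) ∧ ∀ x, x ∉ X → σ x = τ x) := by
    intro s s'
    constructor
    · rintro ⟨h1, h2⟩
      refine ⟨funext fun x => ?_, funext fun x => ?_, fun x hx => ?_⟩
      · by_cases hx : x.1 ∈ A
        · exact ((h1 ⟨x.1, hx⟩).1 x.2).1.symm
        · exact ((h2 ⟨x.1, hx⟩).1 x.2).2.symm
      · by_cases hx : x.1 ∈ A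
        · exact ((h1 ⟨x.1, hx⟩).1 x.2).2.symm
        · exact ((h2 ⟨x.1, hx⟩).1 x.2).1.symm
      · by_cases hA : x ∈ A
        · exact (h1 ⟨x, hA⟩).2 hx
        · exact ((h2 ⟨x, hA⟩).2 hx).symm
    · rintro ⟨rfl, rfl, h3⟩
      exact ⟨fun x => ⟨fun _ => ⟨rfl, rfl⟩, fun hx => h3 _ hx⟩,
        fun x => ⟨fun _ => ⟨rfl, rfl⟩, fun hx => (h3 _ hx).symm⟩⟩
  have e : ∀ s s', (m s s' • tens A (ind (rel (· ∈ A) X s s')) (ind (rel (· ∉ A) X s' s))) σ τ =
      if s' = (fun x => τ x.1) then if s = (fun x => σ x.1) then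
        (if ∀ x, x ∉ X → σ x = τ x then m s s' else 0) else 0 else 0 := by
    intro s s'
    have k := key s s'
    simp only [Matrix.smul_apply, tens, ind, smul_eq_mul]
    by_cases h1 : rel (· ∈ A) X s s' (rA A σ) (rA A τ)
    · by_cases h2 : rel (· ∉ A) X s' s (rB A τ) (rB A σ)
      · obtain ⟨e1, e2, e3⟩ := k.1 ⟨h1, h2⟩
        rw [if_pos h1, if_pos h2, if_pos e2, if_pos e1, if_pos e3]
        simp
      · rw [if_neg h2]
        split_ifs with a1 a2 a3
        · exact absurd (k.2 ⟨a2, a1, a3⟩).2 h2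
        all_goals simp
    · rw [if_neg h1]
      split_ifs with a0 a1 a2 a3 a1 a2 a3
      · exact absurd (k.2 ⟨a2, a1, a3⟩).1 h1
      · simp
      · simp
      · simp
      · exact absurd (k.2 ⟨a2, a1, a3⟩).1 h1
      all_goals simp
  rw [hm, Matrix.sum_apply]
  simp only [Matrix.sum_apply, e, Finset.sum_ite_eq', Finset.mem_univ, if_true]

lemma entry_le (h : Matrix (Conf L q) (Conf L q) ℂ) (σ τ : Conf L q) :
    ‖h σ τ‖ ≤ ‖Matrix.toEuclideanCLM (n := Conf L q) (𝕜 := ℂ) h‖ := by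
  have h1 := (Matrix.toEuclideanCLM (n := Conf L q) (𝕜 := ℂ) h).le_opNorm
    (EuclideanSpace.single τ (1 : ℂ))
  have h2 := PiLp.norm_apply_le (Matrix.toEuclideanCLM (n := Conf L q) (𝕜 := ℂ) h
    (EuclideanSpace.single τ (1 : ℂ))) σ
  have h3 : (Matrix.toEuclideanCLM (n := Conf L q) (𝕜 := ℂ) h
    (EuclideanSpace.single τ (1 : ℂ))) σ = h σ τ := by
    simp [EuclideanSpace.single, Matrix.toEuclideanCLM_toLp]
  rw [h3] at h2
  simpa using h2.trans h1

/-- the double commutator expectation, linear in h -/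
noncomputable def dh (A : Finset (Site L)) (V0 V1 V2 : Matrix (CA q A) (CB q A) ℂ) :
    Matrix (Conf L q) (Conf L q) ℂ →ₗ[ℂ] ℂ where
  toFun h := bf A h V1 V1 - (1 / 2) * bf A h V2 V0 - (1 / 2) * bf A h V0 V2
  map_add' h k := by simp only [bf, add_mulVec, dotProduct_add]; ring
  map_smul' c h := by
    simp only [bf, smul_mulVec, dotProduct_smul, smul_eq_mul, RingHom.id_apply]; ring

lemma term_le (hq : 1 ≤ q) (R : ℕ) (J : ℝ) (hJ : 0 ≤ J)
    (h : Finset (Site L) → Matrix (Conf L q) (Conf L q) ℂ)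
    (hh : Admissible R J h) (A : Finset (Site L))
    (D : Matrix (Conf L q) (Conf L q) ℂ →ₗ[ℂ] ℂ) (M : ℝ) (hM : 0 ≤ M)
    (h1 : ∀ P Q, Bi P → Bi Q → ‖D (tens A P Q)‖ ≤ M)
    (h2 : ∀ Q, D (tens A 1 Q) = 0) (h3 : ∀ P, D (tens A P 1) = 0) :
    ∀ X ∈ supports L R, ‖D (h X)‖ ≤
      if X ∈ cross R A then ((q : ℝ) ^ (2 * R + 1) ^ 2) ^ 2 * J * M else 0 := by
  intro X hX
  obtain ⟨_, ⟨m, hm⟩, hnorm⟩ := hh X hX
  rw [decomp A X (h X) m hm]
  simp only [map_sum, map_smul, smul_eq_mul]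
  split_ifs with hc'
  · have hmJ : ∀ s s', ‖m s s'‖ ≤ J := by
      intro s s'
      let z : Fin q := ⟨0, hq⟩
      have := hm (fun x => if hx : x ∈ X then s ⟨x, hx⟩ else z)
        (fun x => if hx : x ∈ X then s' ⟨x, hx⟩ else z)
      rw [if_pos (fun x hx => by simp [hx])] at this
      simp only [Finset.coe_mem, dite_true, Subtype.coe_eta] at this
      rw [← this]
      exact (entry_le _ _ _).trans hnorm
    have hcard : ((Fintype.card ({x // x ∈ X} → Fin q) : ℕ) : ℝ) ≤ (q : ℝ) ^ (2 * R + 1) ^ 2 := by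
      rw [Fintype.card_fun, Fintype.card_fin, Fintype.card_coe]
      exact_mod_cast Nat.pow_le_pow_right hq (card_supp hX)
    generalize (q : ℝ) ^ (2 * R + 1) ^ 2 = B at hcard
    calc _ ≤ ∑ _s : {x // x ∈ X} → Fin q, ∑ _s' : {x // x ∈ X} → Fin q, J * M :=
          (norm_sum_le _ _).trans (Finset.sum_le_sum fun s _ =>
            (norm_sum_le _ _).trans (Finset.sum_le_sum fun s' _ => by
              rw [norm_mul]
              exact mul_le_mul (hmJ s s') (h1 _ _ (bi_rel (· ∈ A) X s s') (bi_rel (· ∉ A) X s' s))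
                (norm_nonneg _) hJ))
      _ = ((Fintype.card ({x // x ∈ X} → Fin q) : ℕ) : ℝ) ^ 2 * (J * M) := by
          rw [Finset.sum_const, Finset.sum_const, Finset.card_univ, nsmul_eq_mul, nsmul_eq_mul, sq,
            mul_assoc]
      _ ≤ B ^ 2 * (J * M) :=
          mul_le_mul_of_nonneg_right (pow_le_pow_left₀ (Nat.cast_nonneg _) hcard 2)
            (mul_nonneg hJ hM)
      _ = _ := (mul_assoc _ _ _).symm
  · simp only [cross, Finset.mem_filter, hX, true_and, not_and_or] at hc'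
    rw [norm_le_zero_iff]
    refine Finset.sum_eq_zero fun s _ => Finset.sum_eq_zero fun s' _ => ?_
    rcases hc' with hc' | hc'
    · rw [ind_rel_one (· ∈ A) X s s' (fun x hx hA => hc' ⟨x, hx, hA⟩), h2, mul_zero]
    · rw [ind_rel_one (· ∉ A) X s' s (fun x hx hA => hc' ⟨x, hx, hA⟩), h3, mul_zero]

lemma ham_le (hq : 1 ≤ q) (R : ℕ) (J : ℝ) (hJ : 0 ≤ J)
    (h : Finset (Site L) → Matrix (Conf L q) (Conf L q) ℂ)
    (hh : Admissible R J h) (A : Finset (Site L))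
    (D : Matrix (Conf L q) (Conf L q) ℂ →ₗ[ℂ] ℂ) (M : ℝ) (hM : 0 ≤ M)
    (h1 : ∀ P Q, Bi P → Bi Q → ‖D (tens A P Q)‖ ≤ M)
    (h2 : ∀ Q, D (tens A 1 Q) = 0) (h3 : ∀ P, D (tens A P 1) = 0) :
    ‖D (ham R h)‖ ≤ (cross R A).card * (((q : ℝ) ^ (2 * R + 1) ^ 2) ^ 2 * J * M) := by
  have hX := term_le hq R J hJ h hh A D M hM h1 h2 h3
  have h0 : 0 ≤ ((q : ℝ) ^ (2 * R + 1) ^ 2) ^ 2 * J * M := by positivity
  generalize ((q : ℝ) ^ (2 * R + 1) ^ 2) ^ 2 * J * M = B at hX h0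
  unfold ham
  rw [map_sum]
  refine (norm_sum_le _ _).trans ((Finset.sum_le_sum hX).trans ?_)
  rw [← Finset.sum_filter, Finset.sum_const, nsmul_eq_mul]
  refine mul_le_mul_of_nonneg_right ?_ h0
  exact_mod_cast Finset.card_le_card fun X hX => (Finset.mem_filter.mp hX).2

theorem poincare (hq : 1 ≤ q) (R : ℕ) (J Δ : ℝ) (hJ : 0 ≤ J)
    (h : Finset (Site L) → Matrix (Conf L q) (Conf L q) ℂ) (Ω : Conf L q → ℂ)
    (hh : Admissible R J h) (hg : Gapped (ham R h) Δ Ω) (A : Finset (Site L)) :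
    (∀ i, 0 ≤ ev A Ω i) ∧ ∑ i, ev A Ω i = 1 ∧
    ∀ (f μ : CA q A → ℝ) (c : ℝ), (∀ i, 0 ≤ μ i) → 0 ≤ c →
      (∀ i j, (f i - f j) ^ 2 * (√(ev A Ω i) * √(ev A Ω j)) ≤ c * (μ i + μ j)) →
      Δ * (∑ i, ev A Ω i * f i ^ 2 - (∑ i, ev A Ω i * f i) ^ 2) ≤
        (2 ^ (2 * (2 * R) + 1) ^ 2 * ((q : ℝ) ^ (2 * R + 1) ^ 2) ^ 2) * J * bdry A *
          (c * ∑ i, μ i) := by
  obtain ⟨E0, hn, hE, hgap⟩ := hg
  set W : Matrix (CA q A) (CB q A) ℂ := fun a b => Ω (glue A a b) with hWdef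
  have hW : rho A Ω = W * Wᴴ := by
    ext a a'
    rw [Matrix.mul_apply]
    rfl
  obtain ⟨U, N, hU, bU, bN, hpos, hNN, hWe⟩ := schmidt W (rho A Ω) hW (rho_herm A Ω)
  change ∀ i, 0 ≤ ev A Ω i at hpos
  change N * Nᴴ = diagonal (fun i => if ev A Ω i = 0 then (0 : ℂ) else 1) at hNN
  change W = psi U N fun i => √(ev A Ω i) at hWe
  set lam := ev A Ω with hlam
  have hvW : vec A W = Ω := by
    funext σ
    simp [vec, hWdef, glue_r]
  have ip : ∀ g1 g2 : CA q A → ℝ, (∀ i, lam i = 0 → g2 i = 0) →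
      star (vec A (psi U N g1)) ⬝ᵥ vec A (psi U N g2) = ((∑ i, g1 i * g2 i : ℝ) : ℂ) := by
    intro g1 g2 hg
    rw [← tf_one U N lam g1 g2 hU hNN hg, ← bf_tens, tens_one, bf, one_mulVec]
  have hss : ∀ i, √(lam i) * √(lam i) = lam i := fun i => Real.mul_self_sqrt (hpos i)
  have hsum : ∑ i, lam i = 1 := by
    have h1 := ip (fun i => √(lam i)) (fun i => √(lam i)) (fun i hi => by simp [hi])
    rw [← hWe, hvW] at h1
    simp only [hss] at h1
    have h2 : star Ω ⬝ᵥ Ω = ((∑ σ, ‖Ω σ‖ ^ 2 : ℝ) : ℂ) := by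
      simp [dotProduct, Complex.conj_mul']
    rw [h2, hn] at h1
    exact_mod_cast h1.symm
  refine ⟨hpos, hsum, fun f μ c hμ hc hf => ?_⟩
  set V1 := psi U N fun i => f i * √(lam i) with hV1
  set V2 := psi U N fun i => f i ^ 2 * √(lam i) with hV2
  have hH : (ham R h).IsHermitian := by
    unfold ham IsHermitian
    rw [conjTranspose_sum]
    exact Finset.sum_congr rfl fun X hX => (hh X hX).1
  have i11 : star (vec A V1) ⬝ᵥ vec A V1 = ((∑ i, lam i * f i ^ 2 : ℝ) : ℂ) := by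
    rw [hV1, ip _ _ (fun i hi => by simp [hi])]
    congr 1
    exact Finset.sum_congr rfl fun i _ => by linear_combination f i ^ 2 * hss i
  have i20 : star (vec A V2) ⬝ᵥ Ω = ((∑ i, lam i * f i ^ 2 : ℝ) : ℂ) := by
    rw [← hvW, hWe, hV2, ip _ _ (fun i hi => by simp [hi])]
    congr 1
    exact Finset.sum_congr rfl fun i _ => by linear_combination f i ^ 2 * hss i
  have i02 : star Ω ⬝ᵥ vec A V2 = ((∑ i, lam i * f i ^ 2 : ℝ) : ℂ) := by
    rw [← hvW, hWe, hV2, ip _ _ (fun i hi => by simp [hi])]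
    congr 1
    exact Finset.sum_congr rfl fun i _ => by linear_combination f i ^ 2 * hss i
  have i10 : star (vec A V1) ⬝ᵥ Ω = ((∑ i, lam i * f i : ℝ) : ℂ) := by
    rw [← hvW, hWe, hV1, ip _ _ (fun i hi => by simp [hi])]
    congr 1
    exact Finset.sum_congr rfl fun i _ => by linear_combination f i * hss i
  have i01 : star Ω ⬝ᵥ vec A V1 = ((∑ i, lam i * f i : ℝ) : ℂ) := by
    rw [← hvW, hWe, hV1, ip _ _ (fun i hi => by simp [hi])]
    congr 1
    exact Finset.sum_congr rfl fun i _ => by linear_combination f i * hss i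
  have b20 : bf A (ham R h) V2 W = E0 * ((∑ i, lam i * f i ^ 2 : ℝ) : ℂ) := by
    rw [bf, hvW, hE, dotProduct_smul, i20, smul_eq_mul]
  have b02 : bf A (ham R h) W V2 = E0 * ((∑ i, lam i * f i ^ 2 : ℝ) : ℂ) := by
    rw [bf, hvW, dotProduct_mulVec, ← hH.eq, ← star_mulVec, hE, star_smul, smul_dotProduct, i02]
    simp
  have hlow : ((Δ * (∑ i, lam i * f i ^ 2 - (∑ i, lam i * f i) ^ 2) : ℝ) : ℂ) ≤
      dh A W V1 V2 (ham R h) := by
    have h0 := hgap.dotProduct_mulVec_nonneg (vec A V1)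
    have hv : star (vec A V1) ⬝ᵥ (vecMulVec Ω (star Ω) *ᵥ vec A V1) =
        (star (vec A V1) ⬝ᵥ Ω) * (star Ω ⬝ᵥ vec A V1) := by
      simp only [dotProduct, mulVec, vecMulVec_apply, Finset.mul_sum, Finset.sum_mul]
      rw [Finset.sum_comm]
      refine Finset.sum_congr rfl fun σ _ => Finset.sum_congr rfl fun τ _ => by ring
    simp only [sub_mulVec, smul_mulVec, one_mulVec, dotProduct_sub, dotProduct_smul, hv, i11, i10,
      i01, smul_eq_mul] at h0
    have : dh A W V1 V2 (ham R h) = star (vec A V1) ⬝ᵥ (ham R h *ᵥ vec A V1) -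
        E0 * ((∑ i, lam i * f i ^ 2 : ℝ) : ℂ) := by
      change bf A _ V1 V1 - (1 / 2) * bf A _ V2 W - (1 / 2) * bf A _ W V2 = _
      rw [b20, b02, bf]
      ring
    rw [this, ← sub_nonneg]
    convert h0 using 1
    push_cast
    ring
  have hterm : ∀ P Q, dh A W V1 V2 (tens A P Q) = dc U N (fun i => √(lam i)) f P Q := by
    intro P Q
    change bf A _ V1 V1 - (1 / 2) * bf A _ V2 W - (1 / 2) * bf A _ W V2 = _
    rw [bf_tens, bf_tens, bf_tens, hWe]
    rfl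
  have hM : 0 ≤ c * ∑ i, μ i := mul_nonneg hc (Finset.sum_nonneg fun i _ => hμ i)
  have hup := ham_le hq R J hJ h hh A (dh A W V1 V2) (c * ∑ i, μ i) hM
    (fun P Q hP hQ => by
      rw [hterm]
      exact dc_le U N _ f μ c _ _ bU bN hP hQ (fun i => Real.sqrt_nonneg _) hμ hc hf)
    (fun Q => by rw [hterm, dc_right _ _ _ _ _ hU]) (fun P => by rw [hterm, dc_left _ _ _ _ _ _ hNN])
  have hcc : ((cross R A).card : ℝ) ≤ bdry A * 2 ^ (2 * (2 * R) + 1) ^ 2 := by
    exact_mod_cast card_cross R A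
  have hre := (Complex.le_def.mp hlow).1
  rw [Complex.ofReal_re] at hre
  calc _ ≤ (dh A W V1 V2 (ham R h)).re := hre
    _ ≤ _ := Complex.re_le_norm _
    _ ≤ _ := hup
    _ ≤ (bdry A * 2 ^ (2 * (2 * R) + 1) ^ 2) *
          (((q : ℝ) ^ (2 * R + 1) ^ 2) ^ 2 * J * (c * ∑ i, μ i)) :=
        mul_le_mul_of_nonneg_right hcc (by positivity)
    _ = _ := by
        generalize (2 : ℝ) ^ (2 * (2 * R) + 1) ^ 2 = a
        generalize ((q : ℝ) ^ (2 * R + 1) ^ 2) ^ 2 = b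
        ring

end Vale.Agent.P356
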